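import Vale.Agent.P028.Defs
import Vale.Agent.P028.Crit

open MeasureTheory Set Vale.Agent.P028

namespace Vale.Agent.Results.P028.FewDivisors

lemma W_mono (γ : ℝ) {ψ ψ' : ℕ → ℝ} (h : ∀ q, ψ' q ≤ ψ q) : W γ ψ' ⊆ W γ ψ := by
  intro x hx
  refine Set.Infinite.mono ?_ hx
  intro q hq
  exact ⟨hq.1, lt_of_lt_of_le hq.2 (h q)⟩

lemma full_mono (γ : ℝ) {ψ ψ' : ℕ → ℝ} (h : ∀ q, ψ' q ≤ ψ q) (h0 : volume (W γ ψ')ᶜ = 0) :
    volume (W γ ψ)ᶜ = 0 :=
  measure_mono_null (compl_subset_compl.2 (W_mono γ h)) h0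

open Classical in
theorem result (γ : ℝ) (ψ : ℕ → ℝ) (hψ : ∀ q, 0 ≤ ψ q) :
    (Crit γ ψ → volume (W γ ψ)ᶜ = 0) ∧
    (DivMass ψ → volume (W γ ψ)ᶜ = 0) ∧
    (∀ D : ℕ, ¬ Summable (fun q : ℕ => if q.divisors.card ≤ D then ψ q else 0) →
      volume (W γ ψ)ᶜ = 0) ∧
    (∀ D : ℕ, ¬ Summable (fun q : ℕ => if q.divisors.card ≤ D then
        (Nat.totient q : ℝ) / q * ψ q else 0) → volume (W γ ψ)ᶜ = 0) ∧
    (∀ (S : Set ℕ) (C : ℝ), (∀ q ∈ S, 0 < q → ((∑ r ∈ (Finset.range q).filter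
        (fun r => 0 < r ∧ r ∈ S), Nat.gcd q r : ℕ) : ℝ) ≤ C * q) →
      ¬ Summable (fun q : ℕ => if q ∈ S then ψ q else 0) → volume (W γ ψ)ᶜ = 0) := by
  have h2 : ∀ ψ : ℕ → ℝ, (∀ q, 0 ≤ ψ q) → DivMass ψ → volume (W γ ψ)ᶜ = 0 := fun ψ hψ h =>
    crit_full γ ψ hψ (crit_of_divMass γ ψ hψ h)
  have h3 : ∀ ψ : ℕ → ℝ, (∀ q, 0 ≤ ψ q) → ∀ D : ℕ,
      ¬ Summable (fun q : ℕ => if q.divisors.card ≤ D then ψ q else 0) →
      volume (W γ ψ)ᶜ = 0 := by
    intro ψ hψ D hD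
    set ψ' : ℕ → ℝ := fun q => if q.divisors.card ≤ D then ψ q else 0 with hψ'
    have h0 : ∀ q, 0 ≤ ψ' q := by
      intro q; simp only [hψ']; split_ifs
      · exact hψ q
      · exact le_rfl
    have hle : ∀ q, ψ' q ≤ ψ q := by
      intro q; simp only [hψ']; split_ifs
      · exact le_rfl
      · exact hψ q
    apply full_mono γ hle
    apply h2 ψ' h0
    apply divMass_of_support ψ' h0 D _ hD
    intro q _ hq
    by_contra hcon
    apply hq
    simp only [hψ']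
    rw [if_neg hcon]
  refine ⟨crit_full γ ψ hψ, h2 ψ hψ, h3 ψ hψ, ?_, ?_⟩
  · intro D hD
    apply h3 ψ hψ D
    intro hs
    apply hD
    refine Summable.of_nonneg_of_le (fun q => ?_) (fun q => ?_) hs
    · split_ifs
      · exact mul_nonneg (by positivity) (hψ q)
      · exact le_rfl
    · split_ifs
      · have h1 : (Nat.totient q : ℝ) / q ≤ 1 := by
          apply div_le_one_of_le₀ _ (by positivity)
          exact_mod_cast Nat.totient_le q
        calc (Nat.totient q : ℝ) / q * ψ q ≤ 1 * ψ q := mul_le_mul_of_nonneg_right h1 (hψ q)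
          _ = ψ q := one_mul _
      · exact le_rfl
  · intro S C hC hS
    set ψ' : ℕ → ℝ := fun q => if q ∈ S then ψ q else 0 with hψ'
    have h0 : ∀ q, 0 ≤ ψ' q := by
      intro q; simp only [hψ']; split_ifs
      · exact hψ q
      · exact le_rfl
    have hle : ∀ q, ψ' q ≤ ψ q := by
      intro q; simp only [hψ']; split_ifs
      · exact le_rfl
      · exact hψ q
    have hmem : ∀ q, ψ' q ≠ 0 → q ∈ S := by
      intro q hq
      by_contra hcon
      apply hq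
      simp only [hψ']
      rw [if_neg hcon]
    apply full_mono γ hle
    apply crit_full γ ψ' h0
    apply crit_of_gcd γ ψ' h0 hS |C|
    intro q hq hq0
    have h1 := hC q (hmem q hq0) hq
    have h4 : (∑ r ∈ (Finset.range q).filter (fun r => 0 < r ∧ ψ' r ≠ 0), Nat.gcd q r)
        ≤ ∑ r ∈ (Finset.range q).filter (fun r => 0 < r ∧ r ∈ S), Nat.gcd q r := by
      apply Finset.sum_le_sum_of_subset
      intro r hr
      rw [Finset.mem_filter] at hr ⊢
      exact ⟨hr.1, hr.2.1, hmem r hr.2.2⟩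
    calc ((∑ r ∈ (Finset.range q).filter (fun r => 0 < r ∧ ψ' r ≠ 0), Nat.gcd q r : ℕ) : ℝ)
        ≤ ((∑ r ∈ (Finset.range q).filter (fun r => 0 < r ∧ r ∈ S), Nat.gcd q r : ℕ) : ℝ) := by
          exact_mod_cast h4
      _ ≤ C * q := h1
      _ ≤ |C| * q := mul_le_mul_of_nonneg_right (le_abs_self C) (by positivity)

end Vale.Agent.Results.P028.FewDivisors
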